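import Vale.Agent.P207.N4.Dim
import Vale.Agent.P207.N4.H722.GeoIn
import Vale.Agent.P207.N4.H722.Germ

/-!
# P207, line N3, PF3: the transversal disc of a frame, momenta, the unit vector of a momentum
-/

open Set Filter Topology Metric
open scoped ContDiff

noncomputable section

namespace Vale.Agent.P207.N4.H722

open Vale.Agent.P207.N3 Vale.Agent.P207.N3.H722

variable [Dim]

open Vale.Agent.P207.N4.H76 (pk tl e0 sg)

variable {Γ X B : Type} [Group Γ] [MetricSpace X] [ProperSpace X] [MulAction Γ X]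
  [IsIsometricSMul Γ X] [TopologicalSpace B] [CompactSpace B] [T2Space B] [MulAction Γ B]
  [ContinuousConstSMul Γ B]

/-- the inner product of the space -/
theorem inner_eq (v w : E3) : inner ℝ v w = v 0 * w 0 + inner ℝ (tl v) (tl w) := by
  rw [PiLp.inner_apply, PiLp.inner_apply, Fin.sum_univ_succ]
  congr 1
  change w 0 * v 0 = _
  rw [mul_comm]

theorem inner_pk (s t : ℝ) (u w : E2) : inner ℝ (pk s u) (pk t w) = s * t + inner ℝ u w := by
  rw [inner_eq, H76.tl_pk, H76.tl_pk, H76.pk_zero, H76.pk_zero]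

theorem inner_e0 (c : E3) : inner ℝ e0 c = c 0 := by
  rw [← H76.pk_tl c, e0, inner_pk, inner_zero_left, one_mul, add_zero, H76.pk_zero]

namespace GeoIn

variable {L : Leaf Γ X B} {V : Type} [NormedAddCommGroup V] [NormedSpace ℝ V]
  [FiniteDimensional ℝ V] (I : GeoIn L V)

/-! ### the point at infinity of a unit vector -/

open Classical in
/-- the point at infinity from which the geodesic with velocity `v` at `q` comes -/
def xi (p : V × V) : B :=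
  if h : ∃ ξ, I.vel ξ p.1 = p.2 then h.choose else L.em (Classical.choice L.nonempty)

theorem vel_xi {p : V × V} (h : I.G p.1 p.2 p.2 = 1) : I.vel (I.xi p) p.1 = p.2 := by
  have h1 := I.exists_vel invThm h
  rw [xi, dif_pos h1]
  exact h1.choose_spec

theorem xi_vel (ξ : B) (q : V) : I.xi (q, I.vel ξ q) = ξ :=
  I.vel_inj invThm (I.vel_xi (I.G_vel invThm ξ q))

theorem vel_cont : Continuous fun p : B × V => I.vel p.1 p.2 := by
  have h := (I.vel_jc invThm).continuousOn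
  rwa [continuousOn_univ] at h

theorem xi_contOn : ContinuousOn I.xi {p | I.G p.1 p.2 p.2 = 1} := by
  rw [continuousOn_iff_continuous_domRestrict, continuous_iff_isClosed]
  intro C hC
  have h1 : ({p | I.G p.1 p.2 p.2 = 1} : Set (V × V)).domRestrict I.xi ⁻¹' C
      = Prod.fst '' {z : {p : V × V // I.G p.1 p.2 p.2 = 1} × B | z.2 ∈ C ∧
        I.vel z.2 z.1.1.1 = z.1.1.2} := by
    ext p
    constructor
    · intro hp
      exact ⟨(p, I.xi p.1), ⟨hp, I.vel_xi p.2⟩, rfl⟩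
    · rintro ⟨⟨p', ξ⟩, ⟨h1, h2⟩, rfl⟩
      change I.xi p'.1 ∈ C
      have h3 : I.xi p'.1 = ξ := by
        have h4 := I.xi_vel ξ p'.1.1
        simp only at h2
        rwa [h2] at h4
      rw [h3]
      exact h1
  rw [h1]
  refine isClosedMap_fst_of_compactSpace _ (IsClosed.inter (hC.preimage continuous_snd) ?_)
  refine isClosed_eq ?_ (by fun_prop)
  exact I.vel_cont.comp (by fun_prop :
    Continuous fun z : {p : V × V // I.G p.1 p.2 p.2 = 1} × B => (z.2, z.1.1.1))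

/-! ### the disc -/

variable (x₀ : X)

/-- the disc of the frame `x₀` -/
def D (t : E2) : V := I.S.A x₀ (0, t)

theorem D_zero : I.D x₀ 0 = I.S.ft x₀ := I.S.A_zero x₀

theorem A_smooth : ContDiffOn ℝ ∞ (I.S.A x₀) (univ ×ˢ ball 0 I.S.R) := by
  have h := I.S.A_jc.smooth x₀
  refine h.mono fun p hp => ?_
  exact ⟨mem_univ _, hp⟩

theorem isOpen_tube : IsOpen (univ ×ˢ ball 0 I.S.R : Set (ℝ × E2)) := isOpen_univ.prod isOpen_ball

theorem D_smooth : ContDiffOn ℝ ∞ (I.D x₀) (ball 0 I.S.R) := by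
  refine (I.A_smooth x₀).comp (f := fun t : E2 => ((0, t) : ℝ × E2)) ?_ ?_
  · exact (contDiff_const.prodMk contDiff_id).contDiffOn
  · intro t ht
    exact ⟨mem_univ _, ht⟩

theorem D_smoothAt {t : E2} (ht : t ∈ ball (0 : E2) I.S.R) : ContDiffAt ℝ ∞ (I.D x₀) t :=
  (I.D_smooth x₀).contDiffAt (isOpen_ball.mem_nhds ht)

theorem D_diffAt {t : E2} (ht : t ∈ ball (0 : E2) I.S.R) : DifferentiableAt ℝ (I.D x₀) t :=
  (I.D_smoothAt x₀ ht).differentiableAt (by simp)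

/-- the derivative of the disc -/
def J (t : E2) : E2 →L[ℝ] V := fderiv ℝ (I.D x₀) t

theorem J_smooth : ContDiffOn ℝ ∞ (I.J x₀) (ball 0 I.S.R) :=
  ((contDiffOn_infty_iff_fderiv_of_isOpen isOpen_ball).1 (I.D_smooth x₀)).2

theorem J_zero (u : E2) : I.J x₀ 0 u = I.E x₀ (pk 0 (I.r₀ • u)) := by
  have h1 : HasFDerivAt (I.S.A x₀) (fderiv ℝ (I.S.A x₀) 0) 0 :=
    (I.S.A_jc.differentiableAt (I.S.mem_S x₀ 0 I.S.zero_mem)).hasFDerivAt
  have h2 : HasFDerivAt (fun t : E2 => ((0, t) : ℝ × E2))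
      ((0 : E2 →L[ℝ] ℝ).prod (ContinuousLinearMap.id ℝ E2)) 0 :=
    (hasFDerivAt_const 0 _).prodMk (hasFDerivAt_id 0)
  have h3 := (h1.comp (0 : E2) (f := fun t : E2 => ((0, t) : ℝ × E2)) h2).fderiv
  change fderiv ℝ (fun t => I.S.A x₀ (0, t)) 0 u = _
  have h4 : (I.S.A x₀ ∘ fun t : E2 => ((0, t) : ℝ × E2)) = fun t => I.S.A x₀ (0, t) := rfl
  rw [h4] at h3
  rw [h3, ← I.A_fderiv]
  rfl

/-- the momentum: tangential part of the covector `G v` -/
def mom (t : E2) (v : V) : E2 := cv ((I.G (I.D x₀ t) v).comp (I.J x₀ t))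

theorem inner_mom (t : E2) (v : V) (w : E2) :
    inner ℝ (I.mom x₀ t v) w = I.G (I.D x₀ t) v (I.J x₀ t w) := by
  rw [mom, inner_cv]
  rfl

theorem mom_add (t : E2) (v w : V) : I.mom x₀ t (v + w) = I.mom x₀ t v + I.mom x₀ t w := by
  refine ext_inner_right ℝ fun u => ?_
  rw [inner_add_left, inner_mom, inner_mom, inner_mom, map_add]
  rfl

theorem mom_neg (t : E2) (v : V) : I.mom x₀ t (-v) = -I.mom x₀ t v := by
  refine ext_inner_right ℝ fun u => ?_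
  rw [inner_neg_left, inner_mom, inner_mom, map_neg]
  rfl

theorem GD_smooth : ContDiffOn ℝ ∞ (fun t => I.G (I.D x₀ t)) (ball 0 I.S.R) :=
  I.G_smooth.comp_contDiffOn (I.D_smooth x₀)

theorem mom_smooth : ContDiffOn ℝ ∞ (fun p : E2 × V => I.mom x₀ p.1 p.2)
    (ball 0 I.S.R ×ˢ univ) := by
  have h1 : ContDiffOn ℝ ∞ (fun p : E2 × V => I.G (I.D x₀ p.1) p.2) (ball 0 I.S.R ×ˢ univ) :=
    ((I.GD_smooth x₀).comp contDiff_fst.contDiffOn fun p hp => hp.1).clm_apply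
      contDiff_snd.contDiffOn
  have h2 : ContDiffOn ℝ ∞ (fun p : E2 × V => I.J x₀ p.1) (ball 0 I.S.R ×ˢ univ) :=
    (I.J_smooth x₀).comp contDiff_fst.contDiffOn fun p hp => hp.1
  exact cv.contDiff.comp_contDiffOn (h1.clm_comp h2)

theorem gradient_b (ξ : B) {t : E2} (ht : t ∈ ball (0 : E2) I.S.R) :
    gradient (fun t => I.b ξ (I.D x₀ t)) t = I.mom x₀ t (I.vel ξ (I.D x₀ t)) := by
  rw [gradient_eq]
  have h1 := (I.b_hasFDerivAt invThm ξ (I.D x₀ t)).comp t (I.D_diffAt x₀ ht).hasFDerivAt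
  have h2 := h1.fderiv
  change fderiv ℝ (fun t => I.b ξ (I.D x₀ t)) t = _ at h2
  rw [h2]
  rfl

/-- the momentum and the square of the length -/
def Xi (p : E2 × V) : E2 × (E2 × ℝ) :=
  (p.1, (I.mom x₀ p.1 p.2, I.G (I.D x₀ p.1) p.2 p.2))

theorem Xi_smooth : ContDiffOn ℝ ∞ (I.Xi x₀) (ball 0 I.S.R ×ˢ univ) := by
  have h1 : ContDiffOn ℝ ∞ (fun p : E2 × V => I.G (I.D x₀ p.1) p.2) (ball 0 I.S.R ×ˢ univ) :=
    ((I.GD_smooth x₀).comp contDiff_fst.contDiffOn fun p hp => hp.1).clm_apply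
      contDiff_snd.contDiffOn
  exact contDiff_fst.contDiffOn.prodMk
    ((I.mom_smooth x₀).prodMk (h1.clm_apply contDiff_snd.contDiffOn))

include I x₀ in
theorem finrank_V : Module.finrank ℝ V = Dim.m + 1 := by
  have h := (I.EE x₀).toLinearEquiv.finrank_eq
  rw [← h]
  simp

theorem mem_dom {v : V} : ((0, v) : E2 × V) ∈ (ball 0 I.S.R ×ˢ univ : Set (E2 × V)) :=
  ⟨I.S.zero_mem, mem_univ _⟩

theorem isOpen_dom' : IsOpen (ball 0 I.S.R ×ˢ univ : Set (E2 × V)) := isOpen_ball.prod isOpen_univ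

/-- the derivative of `Xi` at the velocity of `x₀` is bijective -/
theorem Xi_bij : Function.Bijective (fderiv ℝ (I.Xi x₀) (0, I.E x₀ e0)) := by
  set v₀ := I.E x₀ e0 with hv₀
  have hd : DifferentiableAt ℝ (I.Xi x₀) (0, v₀) :=
    ((I.Xi_smooth x₀).contDiffAt (I.isOpen_dom'.mem_nhds I.mem_dom)).differentiableAt (by simp)
  refine bijective_of_injective ?_ ?_
  · rw [Module.finrank_prod, Module.finrank_prod, Module.finrank_prod, I.finrank_V x₀]
    simp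
  rintro ⟨a, w⟩ h
  -- the first component
  have h1 : a = 0 := by
    have e1 : HasFDerivAt (fun p => (I.Xi x₀ p).1) ((ContinuousLinearMap.fst ℝ E2 (E2 × ℝ)).comp
        (fderiv ℝ (I.Xi x₀) (0, v₀))) (0, v₀) := hasFDerivAt_fst.comp (0, v₀) hd.hasFDerivAt
    have e2 : HasFDerivAt (fun p => (I.Xi x₀ p).1) (ContinuousLinearMap.fst ℝ E2 V) (0, v₀) :=
      hasFDerivAt_fst
    have e3 := congrArg (fun A => A (a, w)) (e2.unique e1)
    simpa [h] using e3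
  subst h1
  -- the restriction to `{0} × V`
  have e1 : HasFDerivAt (fun v : V => ((0, v) : E2 × V)) (ContinuousLinearMap.inr ℝ E2 V) v₀ :=
    (hasFDerivAt_const (0 : E2) v₀).prodMk (hasFDerivAt_id v₀)
  have e2 : HasFDerivAt (fun v : V => I.Xi x₀ (0, v))
      ((fderiv ℝ (I.Xi x₀) (0, v₀)).comp (ContinuousLinearMap.inr ℝ E2 V)) v₀ :=
    hd.hasFDerivAt.comp v₀ e1
  obtain ⟨c, rfl⟩ := (I.E_bij x₀).2 w
  -- the momentum
  have e3 : HasFDerivAt (fun v : V => (I.Xi x₀ (0, v)).2.1)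
      ((ContinuousLinearMap.fst ℝ E2 ℝ).comp ((ContinuousLinearMap.snd ℝ E2 (E2 × ℝ)).comp
        ((fderiv ℝ (I.Xi x₀) (0, v₀)).comp (ContinuousLinearMap.inr ℝ E2 V)))) v₀ :=
    hasFDerivAt_fst.comp v₀ (hasFDerivAt_snd.comp v₀ e2)
  let mL : V →L[ℝ] E2 := cv.comp (((ContinuousLinearMap.compL ℝ E2 V ℝ).flip (I.J x₀ 0)).comp
    (I.G (I.D x₀ 0)))
  have e4 : HasFDerivAt (fun v : V => (I.Xi x₀ (0, v)).2.1) mL v₀ := mL.hasFDerivAt
  have e5 := congrArg (fun A => A (I.E x₀ c)) (e4.unique e3)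
  have e6 : I.mom x₀ 0 (I.E x₀ c) = 0 := by
    change mL (I.E x₀ c) = 0
    rw [e5]
    simp only [ContinuousLinearMap.coe_comp, Function.comp_apply, ContinuousLinearMap.inr_apply, h]
    rfl
  -- the square of the length
  have e7 : HasFDerivAt (fun v : V => (I.Xi x₀ (0, v)).2.2)
      ((ContinuousLinearMap.snd ℝ E2 ℝ).comp ((ContinuousLinearMap.snd ℝ E2 (E2 × ℝ)).comp
        ((fderiv ℝ (I.Xi x₀) (0, v₀)).comp (ContinuousLinearMap.inr ℝ E2 V)))) v₀ :=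
    hasFDerivAt_snd.comp v₀ (hasFDerivAt_snd.comp v₀ e2)
  have e8 : HasFDerivAt (fun v : V => (I.Xi x₀ (0, v)).2.2)
      ((I.G (I.D x₀ 0) v₀).comp (ContinuousLinearMap.id ℝ V) +
        ((I.G (I.D x₀ 0)).flip v₀)) v₀ := by
    have := (I.G (I.D x₀ 0)).hasFDerivAt (x := v₀) |>.clm_apply (hasFDerivAt_id v₀)
    exact this
  have e9 := congrArg (fun A => A (I.E x₀ c)) (e8.unique e7)
  have e10 : I.G (I.D x₀ 0) v₀ (I.E x₀ c) + I.G (I.D x₀ 0) (I.E x₀ c) v₀ = 0 := by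
    have e11 : (((I.G (I.D x₀ 0) v₀).comp (ContinuousLinearMap.id ℝ V) +
        ((I.G (I.D x₀ 0)).flip v₀)) : V →L[ℝ] ℝ) (I.E x₀ c) = 0 := by
      rw [e9]
      simp only [ContinuousLinearMap.coe_comp, Function.comp_apply,
        ContinuousLinearMap.inr_apply, h]
      rfl
    exact e11
  have hD : I.D x₀ 0 = I.S.ft x₀ := I.D_zero x₀
  rw [hD, hv₀, I.G_E, I.G_E] at e10
  have hc0 : c 0 = 0 := by
    have h2 : inner ℝ e0 c = c 0 := inner_e0 c
    rw [real_inner_comm e0 c, h2] at e10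
    linarith
  have hc1 : tl c = 0 := by
    have h3 : ∀ u : E2, inner ℝ (tl c) u = 0 := by
      intro u
      have h4 := I.inner_mom x₀ 0 (I.E x₀ c) (I.r₀⁻¹ • u)
      rw [e6, inner_zero_left, J_zero, smul_smul, mul_inv_cancel₀ I.r₀_pos.ne', one_smul, hD,
        I.G_E] at h4
      rw [h4, inner_eq, H76.tl_pk, H76.pk_zero, mul_zero, zero_add]
    have h5 := h3 (tl c)
    exact inner_self_eq_zero.1 h5
  have hc : c = 0 := by
    rw [← H76.pk_tl c, hc0, hc1]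
    exact H76.pkL.map_zero
  rw [hc, map_zero]
  rfl

/-- the unit vector with given momentum -/
theorem exists_vv : ∃ vv : E2 × E2 → V, (∀ᶠ z in 𝓝 (0 : E2 × E2), ContDiffAt ℝ ∞ vv z) ∧
    vv 0 = I.E x₀ e0 ∧
    (∀ᶠ z in 𝓝 (0 : E2 × E2), I.mom x₀ z.1 (vv z) = z.2 ∧
      I.G (I.D x₀ z.1) (vv z) (vv z) = 1) ∧
    (∀ᶠ p in 𝓝 ((0, I.E x₀ e0) : E2 × V), I.G (I.D x₀ p.1) p.2 p.2 = 1 →
      vv (p.1, I.mom x₀ p.1 p.2) = p.2) := by
  set v₀ := I.E x₀ e0 with hv₀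
  obtain ⟨T, g, hT, h1, h2, h3, h4, h5⟩ := inv_smooth I.isOpen_dom' (I.Xi_smooth x₀)
    (I.mem_dom (v := v₀)) (isInvertible_of_bijective (I.Xi_bij x₀))
  have hX0 : I.Xi x₀ (0, v₀) = (0, (0, 1)) := by
    have a1 : I.mom x₀ 0 v₀ = 0 := by
      refine ext_inner_right ℝ fun u => ?_
      rw [inner_mom, J_zero, I.D_zero, hv₀, I.G_E, inner_zero_left, inner_e0, H76.pk_zero]
    have a2 : I.G (I.D x₀ 0) v₀ v₀ = 1 := by
      rw [I.D_zero, hv₀, I.G_E, real_inner_self_eq_norm_sq, H76.norm_e0, one_pow]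
    rw [Xi, a1, a2]
  rw [hX0] at h1 h3
  have hc : Continuous fun z : E2 × E2 => ((z.1, (z.2, 1)) : E2 × (E2 × ℝ)) := by fun_prop
  have hcs : ContDiff ℝ ∞ fun z : E2 × E2 => ((z.1, (z.2, 1)) : E2 × (E2 × ℝ)) :=
    contDiff_fst.prodMk (contDiff_snd.prodMk contDiff_const)
  have hz : ∀ᶠ z : E2 × E2 in 𝓝 0, ((z.1, (z.2, 1)) : E2 × (E2 × ℝ)) ∈ T := by
    refine hc.continuousAt.eventually ?_
    exact hT.mem_nhds h1
  refine ⟨fun z => (g (z.1, (z.2, 1))).2, ?_, ?_, ?_, ?_⟩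
  · filter_upwards [hz] with z hz
    have h6 : ContDiffAt ℝ ∞ g (z.1, (z.2, 1)) := h2.contDiffAt (hT.mem_nhds hz)
    exact contDiff_snd.contDiffAt.comp z (h6.comp z hcs.contDiffAt)
  · change (g (0, (0, 1))).2 = v₀
    rw [h3]
  · filter_upwards [hz] with z hz
    obtain ⟨-, h6⟩ := h4 _ hz
    have h7 : (g (z.1, (z.2, 1))).1 = z.1 := congrArg Prod.fst h6
    have h8 := congrArg (fun p => p.2.1) h6
    have h9 := congrArg (fun p => p.2.2) h6
    simp only [Xi, h7] at h8 h9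
    exact ⟨h8, h9⟩
  · filter_upwards [h5] with p hp hp1
    have h6 : I.Xi x₀ p = (p.1, (I.mom x₀ p.1 p.2, 1)) := by rw [Xi, hp1]
    obtain ⟨-, h7⟩ := hp
    rw [h6] at h7
    change (g (p.1, (I.mom x₀ p.1 p.2, 1))).2 = p.2
    rw [h7]

end GeoIn

end Vale.Agent.P207.N4.H722
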